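import Crest.Agent.Helper46.OT.Cells
import Crest.Agent.Helper82.OT.LagCont
import Crest.Agent.Helper5.OT.MvalMassCore
import Crest.Agent.Helper54.OT.MP
import Crest.Agent.Helper48.OT.Telescoping
import Crest.Agent.Helper15.OT.LabelSubgrad

/-!
# Row 82 (S0109), WP-M: stability of the Laguerre weights in the positions — FINAL core file

`weights_stability_core` : the statement of `Spec.weights_stability` with an abstract constant
`B ^ 2`, from a label-subgradient comparison hypothesis with constant `B` (helper15's M2).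
`weights_stability_of`   : the statement of `Spec.weights_stability` (constant `1100`) with ONE
extra hypothesis `hMS` = the moment inequality `Spec.moment_stability` (constant `300`) for `K`.

No `Spec` import; every other dependency is a landed, sorry-free module.
-/

set_option autoImplicit false
noncomputable section
open MeasureTheory Filter Topology
open scoped ENNReal NNReal RealInnerProductSpace

namespace Crest.Agent.Helper75.OT
open Crest.AnalysisR.OT

variable {d : ℕ}

namespace WS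

/-- `mergedMass` is affine in the masses. -/
theorem mergedMass_add_mul {ι : Type} [Fintype ι] (y : ι → E d) (m θ : ι → ℝ) (s : ℝ) (c : E d) :
    mergedMass y (fun i => m i + s * θ i) c = mergedMass y m c + s * mergedMass y θ c := by
  classical
  unfold mergedMass
  rw [Finset.mul_sum, ← Finset.sum_add_distrib]
  refine Finset.sum_congr rfl (fun i _ => ?_)
  split_ifs <;> ring

/-- Supergradient inequality in the masses (`Spec.Mval_mass_le`), from helper5's core. -/
theorem Mval_mass_le' {K : Set (E d)} (hK : Body K) (S : Finset (E d)) (hS : S.Nonempty)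
    (g g' w w' : E d → ℝ) (hw : IsLagWeights K S g w) (hw' : IsLagWeights K S g' w') :
    Mval K S w' ≤ Mval K S w + ∑ c ∈ S, (g' c - g c) * w c :=
  Mval_mass_le_core hK.compact
    (by have := rho_prob hK; infer_instance) (rho_compl hK) S
    (fun v c => measurableSet_Lag hK S v c)
    (fun v f hf => sum_integral_Lag hK S hS v f hf) g g' w w' hw hw'

/-- `Spec.mass_deriv`, from helper82's `mass_deriv_of_le`. -/
theorem mass_deriv' {K : Set (E d)} (hK : Body K) (S : Finset (E d)) (hS : S.Nonempty)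
    (g Θ : E d → ℝ) (hg : ∀ c ∈ S, 0 < g c) (hsum : ∑ c ∈ S, g c = 1)
    (hΘ : ∑ c ∈ S, Θ c = 0) (w : E d → ℝ) (hw : IsLagWeights K S g w) (ws : ℝ → E d → ℝ)
    (hws : ∀ᶠ s in 𝓝[>] (0 : ℝ), IsLagWeights K S (fun c => g c + s * Θ c) (ws s)) :
    Tendsto (fun s => (Mval K S (ws s) - Mval K S w) / s) (𝓝[>] 0)
      (𝓝 (∑ c ∈ S, Θ c * w c)) :=
  mass_deriv_of_le hK S hS (fun g g' w w' hw hw' => Mval_mass_le' hK S hS g g' w w' hw hw')
    g Θ hg hsum hΘ w hw ws hws

/-- `Mval` does not depend on the choice of the weights realising given masses. -/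
theorem Mval_eq_of_isLagWeights {K : Set (E d)} (hK : Body K) (S : Finset (E d)) (hS : S.Nonempty)
    (g w w' : E d → ℝ) (hw : IsLagWeights K S g w) (hw' : IsLagWeights K S g w') :
    Mval K S w' = Mval K S w := by
  have h1 := Mval_mass_le' hK S hS g g w w' hw hw'
  have h2 := Mval_mass_le' hK S hS g g w' w hw' hw
  simp only [sub_self, zero_mul, Finset.sum_const_zero, add_zero] at h1 h2
  exact le_antisymm h1 h2

theorem supp_nonempty {ι : Type} [Fintype ι] [Nonempty ι] (y : ι → E d) : (supp y).Nonempty := by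
  classical
  unfold supp
  exact Finset.image_nonempty.mpr Finset.univ_nonempty

/-- The label-subgradient comparison (helper15's M2) with an abstract constant `B`. -/
def CmpHyp (K : Set (E d)) (R B : ℝ) : Prop :=
  ∀ (ι : Type) [Fintype ι] (u v : ι → E d) (m m' : ι → ℝ), (∀ i, 0 < m i) → (∀ i, 0 < m' i) →
    (∀ i, m' i ≤ 2 * m i) → ∀ (w w' : E d → ℝ),
    IsLagWeights K (supp u) (mergedMass u m) w → IsLagWeights K (supp u) (mergedMass u m') w' →
    |∑ i, m' i / mergedMass u m' (u i) * ⟪mM K (supp u) w' (u i), v i⟫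
        - ∑ i, m i / mergedMass u m (u i) * ⟪mM K (supp u) w (u i), v i⟫|
      ≤ B * R * Real.sqrt (∑ i, (m' i - m i) ^ 2 / m i)
          * Real.sqrt (∑ i, m i * ‖v i‖ ^ 2)

/-- Key pairing bound: the weights differ by a "Lipschitz" amount when tested against mean-zero
directions. -/
theorem pairing_bound {K : Set (E d)} (hK : Body K) {R B : ℝ} (hCmp : CmpHyp K R B)
    {ι : Type} [Fintype ι] (y z : ι → E d) (m : ι → ℝ) (hm : ∀ i, 0 < m i)
    (hsum : ∑ i, m i = 1) (wy wz : E d → ℝ)
    (hwy : IsLagWeights K (supp y) (mergedMass y m) wy)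
    (hwz : IsLagWeights K (supp z) (mergedMass z m) wz) (θ : ι → ℝ) (hθ : ∑ i, θ i = 0) :
    |∑ i, θ i * (wy (y i) - wz (z i))|
      ≤ B * R * Real.sqrt (∑ i, θ i ^ 2 / m i) * Real.sqrt (∑ i, m i * ‖y i - z i‖ ^ 2) := by
  classical
  have hne : Nonempty ι := by
    by_contra h
    rw [not_nonempty_iff] at h
    simp at hsum
  -- a small range of mass perturbations
  obtain ⟨s₀, hs₀pos, hs₀⟩ : ∃ s₀ : ℝ, 0 < s₀ ∧ ∀ i, s₀ * |θ i| ≤ m i / 2 := by
    let a : ι → ℝ := fun i => m i / (2 * (|θ i| + 1))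
    have ha : ∀ i, 0 < a i := fun i => div_pos (hm i) (by positivity)
    refine ⟨Finset.univ.inf' Finset.univ_nonempty a, ?_, ?_⟩
    · rw [Finset.lt_inf'_iff]; exact fun i _ => ha i
    · intro i
      have h1 : Finset.univ.inf' Finset.univ_nonempty a ≤ a i :=
        Finset.inf'_le _ (Finset.mem_univ i)
      have h2 : a i * |θ i| ≤ m i / 2 := by
        simp only [a]
        rw [div_mul_eq_mul_div, div_le_div_iff₀ (by positivity) (by norm_num)]
        nlinarith [abs_nonneg (θ i), hm i]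
      calc _ ≤ a i * |θ i| := mul_le_mul_of_nonneg_right h1 (abs_nonneg _)
        _ ≤ _ := h2
  -- the segment of configurations and the perturbed masses
  let u : ℝ → ι → E d := fun t i => z i + t • (y i - z i)
  have hu0 : u 0 = z := by funext i; simp [u]
  have hu1 : u 1 = y := by funext i; simp [u]
  let ms : ℝ → ι → ℝ := fun s i => m i + s * θ i
  have hms0 : ms 0 = m := by funext i; simp [ms]
  have hms_pos : ∀ s, 0 ≤ s → s ≤ s₀ → ∀ i, 0 < ms s i := by
    intro s h0 h1 i
    have e1 : s * -|θ i| ≤ s * θ i := mul_le_mul_of_nonneg_left (neg_abs_le (θ i)) h0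
    have e2 : s * |θ i| ≤ s₀ * |θ i| := mul_le_mul_of_nonneg_right h1 (abs_nonneg _)
    have e3 := hs₀ i
    have e4 := hm i
    simp only [ms]
    nlinarith
  have hms_le : ∀ s, 0 ≤ s → s ≤ s₀ → ∀ i, ms s i ≤ 2 * ms 0 i := by
    intro s h0 h1 i
    have e1 : s * θ i ≤ s * |θ i| := mul_le_mul_of_nonneg_left (le_abs_self (θ i)) h0
    have e2 : s * |θ i| ≤ s₀ * |θ i| := mul_le_mul_of_nonneg_right h1 (abs_nonneg _)
    have e3 := hs₀ i
    have e4 := hm i
    simp only [ms]
    nlinarith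
  have hms_sum : ∀ s, ∑ i, ms s i = 1 := by
    intro s
    simp only [ms, Finset.sum_add_distrib, ← Finset.mul_sum, hθ, hsum, mul_zero, add_zero]
  have hex : ∀ t s, ∃ w : E d → ℝ, 0 ≤ s → s ≤ s₀ →
      IsLagWeights K (supp (u t)) (mergedMass (u t) (ms s)) w := by
    intro t s
    by_cases h : 0 ≤ s ∧ s ≤ s₀
    · obtain ⟨w, hw⟩ := exists_lagWeights hK (supp (u t)) (supp_nonempty (u t))
        (mergedMass (u t) (ms s))
        (fun c hc => mergedMass_pos (u t) (ms s) (hms_pos s h.1 h.2) hc)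
        (by rw [sum_mergedMass]; exact hms_sum s)
      exact ⟨w, fun _ _ => hw⟩
    · exact ⟨fun _ => 0, fun h1 h2 => absurd ⟨h1, h2⟩ h⟩
  choose W hW using hex
  -- values and subgradient selections along the segment
  let h : ℝ → ℝ → ℝ := fun s t => Mval K (supp (u t)) (W t s)
  let p : ℝ → ℝ → ℝ := fun s t =>
    ∑ i, ms s i / mergedMass (u t) (ms s) (u t i)
      * ⟪mM K (supp (u t)) (W t s) (u t i), y i - z i⟫
  have Hsub : ∀ s, 0 ≤ s → s ≤ s₀ → ∀ t ∈ Set.Icc (0 : ℝ) 1, ∀ t' ∈ Set.Icc (0 : ℝ) 1,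
      h s t + p s t * (t' - t) ≤ h s t' := by
    intro s hs0 hs1 t _ t' _
    have key := Mval_position_subgrad hK (u t) (u t') (ms s) (hms_pos s hs0 hs1) (hms_sum s)
      (W t s) (W t' s) (hW t s hs0 hs1) (hW t' s hs0 hs1)
    have e : ∀ i, u t' i - u t i = (t' - t) • (y i - z i) := by
      intro i
      simp only [u]
      module
    simp only [e, inner_smul_right] at key
    have e2 : ∑ i, ms s i / mergedMass (u t) (ms s) (u t i)
        * ((t' - t) * ⟪mM K (supp (u t)) (W t s) (u t i), y i - z i⟫) = p s t * (t' - t) := by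
      simp only [p]
      rw [Finset.sum_mul]
      exact Finset.sum_congr rfl (fun i _ => by ring)
    rw [e2] at key
    exact key
  set N : ℝ := Real.sqrt (∑ i, θ i ^ 2 / m i) with hN
  set W2 : ℝ := Real.sqrt (∑ i, m i * ‖y i - z i‖ ^ 2) with hW2
  -- comparison of the selections
  have Hcmp : ∀ s, 0 ≤ s → s ≤ s₀ → ∀ t ∈ Set.Icc (0 : ℝ) 1,
      |p s t - p 0 t| ≤ B * R * (s * N) * W2 := by
    intro s hs0 hs1 t _
    have key := hCmp ι (u t) (fun i => y i - z i) (ms 0) (ms s)
      (hms_pos 0 le_rfl hs₀pos.le) (hms_pos s hs0 hs1)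
      (hms_le s hs0 hs1) (W t 0) (W t s) (hW t 0 le_rfl hs₀pos.le) (hW t s hs0 hs1)
    have e1 : Real.sqrt (∑ i, (ms s i - ms 0 i) ^ 2 / ms 0 i) = s * N := by
      have : ∑ i, (ms s i - ms 0 i) ^ 2 / ms 0 i = s ^ 2 * ∑ i, θ i ^ 2 / m i := by
        rw [Finset.mul_sum]
        refine Finset.sum_congr rfl (fun i _ => ?_)
        simp only [ms]
        ring
      rw [this, Real.sqrt_mul (sq_nonneg s), Real.sqrt_sq hs0]
    have e2 : Real.sqrt (∑ i, ms 0 i * ‖y i - z i‖ ^ 2) = W2 := by
      rw [hms0]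
    rw [e1, e2] at key
    exact key
  -- telescoping
  have Htel : ∀ s, 0 ≤ s → s ≤ s₀ →
      |(h s 1 - h s 0) - (h 0 1 - h 0 0)| ≤ B * R * (s * N) * W2 := by
    intro s hs0 hs1
    exact telescoping (h 0) (h s) (p 0) (p s) _ (Hsub 0 le_rfl hs₀pos.le) (Hsub s hs0 hs1)
      (Hcmp s hs0 hs1)
  -- endpoint identifications
  have hWy : ∀ s, 0 ≤ s → s ≤ s₀ → IsLagWeights K (supp y) (mergedMass y (ms s)) (W 1 s) := by
    intro s h0 h1
    have := hW 1 s h0 h1
    rwa [hu1] at this
  have hWz : ∀ s, 0 ≤ s → s ≤ s₀ → IsLagWeights K (supp z) (mergedMass z (ms s)) (W 0 s) := by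
    intro s h0 h1
    have := hW 0 s h0 h1
    rwa [hu0] at this
  have hh1 : ∀ s, h s 1 = Mval K (supp y) (W 1 s) := by
    intro s
    show Mval K (supp (u 1)) (W 1 s) = _
    rw [hu1]
  have hh0 : ∀ s, h s 0 = Mval K (supp z) (W 0 s) := by
    intro s
    show Mval K (supp (u 0)) (W 0 s) = _
    rw [hu0]
  have hy0 : h 0 1 = Mval K (supp y) wy := by
    rw [hh1]
    have h1 := hWy 0 le_rfl hs₀pos.le
    rw [hms0] at h1
    exact Mval_eq_of_isLagWeights hK (supp y) (supp_nonempty y) _ wy (W 1 0) hwy h1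
  have hz0 : h 0 0 = Mval K (supp z) wz := by
    rw [hh0]
    have h1 := hWz 0 le_rfl hs₀pos.le
    rw [hms0] at h1
    exact Mval_eq_of_isLagWeights hK (supp z) (supp_nonempty z) _ wz (W 0 0) hwz h1
  -- derivatives in the mass direction at both endpoints
  have hev : ∀ᶠ s in 𝓝[>] (0 : ℝ), 0 < s ∧ s ≤ s₀ := by
    have : Set.Ioc (0 : ℝ) s₀ ∈ 𝓝[>] (0 : ℝ) := Ioc_mem_nhdsGT hs₀pos
    exact Filter.mem_of_superset this (fun s hs => hs)
  have hdy : Tendsto (fun s => (Mval K (supp y) (W 1 s) - Mval K (supp y) wy) / s) (𝓝[>] 0)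
      (𝓝 (∑ i, θ i * wy (y i))) := by
    have key := mass_deriv' hK (supp y) (supp_nonempty y) (mergedMass y m) (mergedMass y θ)
      (fun c hc => mergedMass_pos y m hm hc) (by rw [sum_mergedMass]; exact hsum)
      (by rw [sum_mergedMass]; exact hθ) wy hwy (fun s => W 1 s)
      (by
        filter_upwards [hev] with s hs
        have h1 := hWy s hs.1.le hs.2
        have e : mergedMass y (ms s) = fun c => mergedMass y m c + s * mergedMass y θ c := by
          funext c
          exact mergedMass_add_mul y m θ s c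
        rwa [e] at h1)
    rwa [sum_supp_mergedMass y θ wy] at key
  have hdz : Tendsto (fun s => (Mval K (supp z) (W 0 s) - Mval K (supp z) wz) / s) (𝓝[>] 0)
      (𝓝 (∑ i, θ i * wz (z i))) := by
    have key := mass_deriv' hK (supp z) (supp_nonempty z) (mergedMass z m) (mergedMass z θ)
      (fun c hc => mergedMass_pos z m hm hc) (by rw [sum_mergedMass]; exact hsum)
      (by rw [sum_mergedMass]; exact hθ) wz hwz (fun s => W 0 s)
      (by
        filter_upwards [hev] with s hs
        have h1 := hWz s hs.1.le hs.2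
        have e : mergedMass z (ms s) = fun c => mergedMass z m c + s * mergedMass z θ c := by
          funext c
          exact mergedMass_add_mul z m θ s c
        rwa [e] at h1)
    rwa [sum_supp_mergedMass z θ wz] at key
  have hlim := (hdy.sub hdz).abs
  have hbd : ∀ᶠ s in 𝓝[>] (0 : ℝ),
      |(Mval K (supp y) (W 1 s) - Mval K (supp y) wy) / s
        - (Mval K (supp z) (W 0 s) - Mval K (supp z) wz) / s| ≤ B * R * N * W2 := by
    filter_upwards [hev] with s hs
    have ht := Htel s hs.1.le hs.2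
    rw [hh1, hh0, hy0, hz0] at ht
    have e : (Mval K (supp y) (W 1 s) - Mval K (supp y) wy) / s
        - (Mval K (supp z) (W 0 s) - Mval K (supp z) wz) / s
        = ((Mval K (supp y) (W 1 s) - Mval K (supp z) (W 0 s))
            - (Mval K (supp y) wy - Mval K (supp z) wz)) / s := by
      field_simp
      ring
    rw [e, abs_div, abs_of_pos hs.1, div_le_iff₀ hs.1]
    calc _ ≤ B * R * (s * N) * W2 := ht
      _ = B * R * N * W2 * s := by ring
  have hfin := le_of_tendsto hlim hbd
  have e : ∑ i, θ i * (wy (y i) - wz (z i)) = ∑ i, θ i * wy (y i) - ∑ i, θ i * wz (z i) := by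
    rw [← Finset.sum_sub_distrib]
    exact Finset.sum_congr rfl (fun i _ => by ring)
  rw [e]
  exact hfin

/-- Stability of the weights with the abstract constant `B ^ 2`. -/
theorem weights_stability_core {K : Set (E d)} (hK : Body K) {R B : ℝ} (hCmp : CmpHyp K R B)
    {ι : Type} [Fintype ι] (y z : ι → E d) (m : ι → ℝ) (hm : ∀ i, 0 < m i)
    (hsum : ∑ i, m i = 1) (wy wz : E d → ℝ)
    (hwy : IsLagWeights K (supp y) (mergedMass y m) wy)
    (hwz : IsLagWeights K (supp z) (mergedMass z m) wz) :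
    ∑ i, m i * ((wy (y i) - wz (z i)) - ∑ j, m j * (wy (y j) - wz (z j))) ^ 2
      ≤ B ^ 2 * R ^ 2 * ∑ i, m i * ‖y i - z i‖ ^ 2 := by
  set ω : ι → ℝ := fun i => wy (y i) - wz (z i) with hω
  set ωb : ℝ := ∑ j, m j * ω j with hωb
  set V : ℝ := ∑ i, m i * (ω i - ωb) ^ 2 with hV
  set Q : ℝ := ∑ i, m i * ‖y i - z i‖ ^ 2 with hQ
  have hV0 : 0 ≤ V := Finset.sum_nonneg (fun i _ => mul_nonneg (hm i).le (sq_nonneg _))
  have hQ0 : 0 ≤ Q := Finset.sum_nonneg (fun i _ => mul_nonneg (hm i).le (sq_nonneg _))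
  -- test direction
  let θ : ι → ℝ := fun i => m i * (ω i - ωb)
  have hθ : ∑ i, θ i = 0 := by
    simp only [θ, mul_sub, Finset.sum_sub_distrib, ← Finset.sum_mul, hsum, one_mul]
    rw [hωb]; ring
  have key := pairing_bound hK hCmp y z m hm hsum wy wz hwy hwz θ hθ
  have e1 : ∑ i, θ i * (wy (y i) - wz (z i)) = V := by
    have : ∑ i, θ i * ω i = ∑ i, m i * (ω i - ωb) ^ 2 + ωb * ∑ i, θ i := by
      rw [Finset.mul_sum, ← Finset.sum_add_distrib]
      exact Finset.sum_congr rfl (fun i _ => by simp only [θ]; ring)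
    rw [hθ, mul_zero, add_zero] at this
    exact this
  have e2 : ∑ i, θ i ^ 2 / m i = V := by
    refine Finset.sum_congr rfl (fun i _ => ?_)
    simp only [θ]
    have := (hm i).ne'
    field_simp
  rw [e1, e2, abs_of_nonneg hV0] at key
  -- V ≤ B R √V √Q
  have hsV := Real.sqrt_nonneg V
  have hVs : Real.sqrt V ^ 2 = V := Real.sq_sqrt hV0
  have hQs : Real.sqrt Q ^ 2 = Q := Real.sq_sqrt hQ0
  by_cases hV' : V = 0
  · rw [hV']; positivity
  · have hsVpos : 0 < Real.sqrt V := Real.sqrt_pos.mpr (lt_of_le_of_ne hV0 (Ne.symm hV'))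
    have h1 : Real.sqrt V ≤ B * R * Real.sqrt Q := by
      have : Real.sqrt V * Real.sqrt V ≤ (B * R * Real.sqrt Q) * Real.sqrt V := by
        calc Real.sqrt V * Real.sqrt V = V := by rw [← sq]; exact hVs
          _ ≤ B * R * Real.sqrt V * Real.sqrt Q := key
          _ = _ := by ring
      exact le_of_mul_le_mul_right this hsVpos
    have h2 : V ≤ (B * R * Real.sqrt Q) ^ 2 := by
      rw [← hVs]
      exact pow_le_pow_left₀ hsV h1 2
    calc V ≤ (B * R * Real.sqrt Q) ^ 2 := h2
      _ = B ^ 2 * R ^ 2 * Q := by rw [mul_pow, mul_pow, hQs]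

/-- helper15's (M2) gives the comparison hypothesis with `B = 32` from the moment inequality with
constant `300`. -/
theorem cmpHyp_of_moment_stability {K : Set (E d)} (hK : Body K) {R : ℝ} (hR : ∀ x ∈ K, ‖x‖ ≤ R)
    (hMS : ∀ (S : Finset (E d)) (w0 w1 : E d → ℝ),
      ∑ c ∈ S, ‖mM K S w1 c - mM K S w0 c‖ ^ 2 / (gM K S w0 c + gM K S w1 c)
        ≤ 300 * R ^ 2 *
          ∑ c ∈ S, (gM K S w1 c - gM K S w0 c) ^ 2 / (gM K S w0 c + gM K S w1 c)) :
    CmpHyp K R 32 := by
  intro ι _ u v m m' hm hm' hmm w w' hw hw'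
  have hR0 : 0 ≤ R := by
    obtain ⟨x, hx⟩ := hK.inter
    exact (norm_nonneg x).trans (hR x (interior_subset hx))
  exact label_subgrad_close hR0 u v m m' hm hm' hmm w w' hw hw'
    (fun c _ => norm_mM_le hK hR (supp u) w' c) (hMS (supp u) w w')

end WS

/-- `Spec.weights_stability` with ONE extra hypothesis: the moment inequality (S) for `K`
(`Spec.moment_stability`, constant `300`). -/
theorem weights_stability_of {K : Set (E d)} (hK : Body K) {R : ℝ} (hR : ∀ x ∈ K, ‖x‖ ≤ R)
    (hMS : ∀ (S : Finset (E d)) (w0 w1 : E d → ℝ),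
      ∑ c ∈ S, ‖mM K S w1 c - mM K S w0 c‖ ^ 2 / (gM K S w0 c + gM K S w1 c)
        ≤ 300 * R ^ 2 *
          ∑ c ∈ S, (gM K S w1 c - gM K S w0 c) ^ 2 / (gM K S w0 c + gM K S w1 c))
    {ι : Type} [Fintype ι] (y z : ι → E d) (m : ι → ℝ) (hm : ∀ i, 0 < m i)
    (hsum : ∑ i, m i = 1) (wy wz : E d → ℝ)
    (hwy : IsLagWeights K (supp y) (mergedMass y m) wy)
    (hwz : IsLagWeights K (supp z) (mergedMass z m) wz) :
    ∑ i, m i * ((wy (y i) - wz (z i)) - ∑ j, m j * (wy (y j) - wz (z j))) ^ 2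
      ≤ 1100 * R ^ 2 * ∑ i, m i * ‖y i - z i‖ ^ 2 := by
  have h := WS.weights_stability_core hK (WS.cmpHyp_of_moment_stability hK hR hMS)
    y z m hm hsum wy wz hwy hwz
  have hQ0 : 0 ≤ R ^ 2 * ∑ i, m i * ‖y i - z i‖ ^ 2 :=
    mul_nonneg (sq_nonneg R) (Finset.sum_nonneg (fun i _ => mul_nonneg (hm i).le (sq_nonneg _)))
  nlinarith

end Crest.Agent.Helper75.OT
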